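import Mathlib

/-!
P315, concrete model of the query algorithm (note 15110): interval nodes, certified costs `c`,
full values `D`, read sets `S`.
-/

set_option autoImplicit false

namespace Vale.Agent.P315.H365

open Finset

/-! ### Chains -/

/-- `z` is a monotone chain of `M` steps from `a` to `b`. -/
structure IsChain (M a b : ℕ) (z : ℕ → ℕ) : Prop where
  start : z 0 = a
  finish : z M = b
  mono : ∀ i < M, z i ≤ z (i + 1)

/-- Cost of a chain for the edge costs `f i u v` (row `i`, from `u` to `v`). -/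
def chainCost (f : ℕ → ℕ → ℕ → ℕ) (M : ℕ) (z : ℕ → ℕ) : ℕ :=
  ∑ i ∈ range M, f i (z i) (z (i + 1))

/-- Least cost of a chain from `a` to `b`. -/
noncomputable def best (f : ℕ → ℕ → ℕ → ℕ) (M a b : ℕ) : ℕ :=
  sInf {C | ∃ z, IsChain M a b z ∧ chainCost f M z = C}

theorem IsChain.le_of_le {M a b : ℕ} {z : ℕ → ℕ} (h : IsChain M a b z) {i k : ℕ} (hik : i ≤ k)
    (hk : k ≤ M) : z i ≤ z k := by
  induction k, hik using Nat.le_induction with
  | base => exact le_rfl
  | succ k hik ih => exact (ih (by omega)).trans (h.mono k (by omega))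

theorem IsChain.ge {M a b : ℕ} {z : ℕ → ℕ} (h : IsChain M a b z) {i : ℕ} (hi : i ≤ M) :
    a ≤ z i := by
  rw [← h.start]; exact h.le_of_le (Nat.zero_le _) hi

theorem IsChain.le {M a b : ℕ} {z : ℕ → ℕ} (h : IsChain M a b z) {i : ℕ} (hi : i ≤ M) :
    z i ≤ b := by
  rw [← h.finish]; exact h.le_of_le hi le_rfl

theorem exists_chain {M a b : ℕ} (hM : 1 ≤ M) (hab : a ≤ b) : ∃ z, IsChain M a b z := by
  refine ⟨fun i => if i = 0 then a else b, ?_, ?_, ?_⟩
  · simp
  · simp; omega
  · intro i _
    by_cases hi : i = 0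
    · simp [hi, hab]
    · simp [hi]

theorem chainCost_mono {f f' : ℕ → ℕ → ℕ → ℕ} {M a b : ℕ} {z : ℕ → ℕ} (hz : IsChain M a b z)
    (h : ∀ i < M, ∀ u v, a ≤ u → u ≤ v → v ≤ b → f i u v ≤ f' i u v) :
    chainCost f M z ≤ chainCost f' M z :=
  Finset.sum_le_sum fun i hi => by
    have hi' := Finset.mem_range.mp hi
    exact h i hi' _ _ (hz.ge hi'.le) (hz.mono i hi') (hz.le (by omega))

theorem chainCost_congr {f f' : ℕ → ℕ → ℕ → ℕ} {M a b : ℕ} {z : ℕ → ℕ} (hz : IsChain M a b z)
    (h : ∀ i < M, ∀ u v, a ≤ u → u ≤ v → v ≤ b → f i u v = f' i u v) :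
    chainCost f M z = chainCost f' M z :=
  le_antisymm (chainCost_mono hz fun i hi u v h1 h2 h3 => (h i hi u v h1 h2 h3).le)
    (chainCost_mono hz fun i hi u v h1 h2 h3 => (h i hi u v h1 h2 h3).ge)

theorem best_le {f : ℕ → ℕ → ℕ → ℕ} {M a b : ℕ} {z : ℕ → ℕ} (hz : IsChain M a b z) :
    best f M a b ≤ chainCost f M z :=
  Nat.sInf_le ⟨z, hz, rfl⟩

theorem exists_best {f : ℕ → ℕ → ℕ → ℕ} {M a b : ℕ} (hM : 1 ≤ M) (hab : a ≤ b) :
    ∃ z, IsChain M a b z ∧ chainCost f M z = best f M a b := by
  obtain ⟨z, hz⟩ := exists_chain hM hab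
  have hne : {C | ∃ z, IsChain M a b z ∧ chainCost f M z = C}.Nonempty := ⟨_, z, hz, rfl⟩
  exact Nat.sInf_mem hne

theorem le_best {f : ℕ → ℕ → ℕ → ℕ} {M a b C : ℕ} (hM : 1 ≤ M) (hab : a ≤ b)
    (h : ∀ z, IsChain M a b z → C ≤ chainCost f M z) : C ≤ best f M a b := by
  obtain ⟨z, hz, e⟩ := exists_best (f := f) hM hab
  rw [← e]; exact h z hz

theorem best_mono {f f' : ℕ → ℕ → ℕ → ℕ} {M a b : ℕ} (hM : 1 ≤ M) (hab : a ≤ b)
    (h : ∀ i < M, ∀ u v, a ≤ u → u ≤ v → v ≤ b → f i u v ≤ f' i u v) :
    best f M a b ≤ best f' M a b :=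
  le_best hM hab fun _ hz => (best_le hz).trans (chainCost_mono hz h)

theorem best_congr {f f' : ℕ → ℕ → ℕ → ℕ} {M a b : ℕ} (hM : 1 ≤ M) (hab : a ≤ b)
    (h : ∀ i < M, ∀ u v, a ≤ u → u ≤ v → v ≤ b → f i u v = f' i u v) :
    best f M a b = best f' M a b :=
  le_antisymm (best_mono hM hab fun i hi u v h1 h2 h3 => (h i hi u v h1 h2 h3).le)
    (best_mono hM hab fun i hi u v h1 h2 h3 => (h i hi u v h1 h2 h3).ge)

/-! ### The instance, full values -/

/-- An instance: branching `M`, width `w`, unit `g j` of level `j`, hidden and visible leaf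
costs. -/
structure Inst where
  M : ℕ
  w : ℕ
  g : ℕ → ℕ
  hid : ℕ → ℕ → ℕ → ℕ
  vis : ℕ → ℕ → ℕ → ℕ

/-- Cost of an edge of level `j`: the value `f u v` of the node if it is short, else the cost of
the jump. -/
def Inst.edge (I : Inst) (j : ℕ) (f : ℕ → ℕ → ℕ) (u v : ℕ) : ℕ :=
  if v - u ≤ I.w then f u v else (v - u) * I.g j

theorem Inst.edge_mono (I : Inst) (j : ℕ) {f f' : ℕ → ℕ → ℕ} {u v : ℕ} (h : f u v ≤ f' u v) :
    I.edge j f u v ≤ I.edge j f' u v := by
  unfold Inst.edge; split_ifs
  · exact h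
  · exact le_rfl

/-- Values of the nodes when the leaf costs are `leaf` (everything is read). -/
noncomputable def Inst.D (I : Inst) (leaf : ℕ → ℕ → ℕ → ℕ) : ℕ → ℕ → ℕ → ℕ → ℕ
  | 0, s, u, v => leaf s u v
  | j + 1, s, u, v =>
    best (fun i => I.edge j (I.D leaf j (s * I.M + i))) I.M (u * I.M) (v * I.M)

/-! ### The schedule and the certified costs -/

/-- The schedule: jitter of each slab, and the lane chosen at `(j, s, u, v)` in round `b` as a
function of the history (costs of all edges in the rounds up to `b`). -/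
structure Sched where
  xi : ℕ → ℕ → ℕ
  lane : ℕ → ℕ → ℕ → ℕ → ℕ → (ℕ → ℕ → ℕ → ℕ → ℕ) → ℕ → ℕ

/-- The history known in round `b`. -/
def cut (b : ℕ) (f : ℕ → ℕ → ℕ → ℕ → ℕ) : ℕ → ℕ → ℕ → ℕ → ℕ :=
  fun k i u v => if k ≤ b then f k i u v else 0

/-- Costs of the edges below the slab `s` of level `j+1`, in round `k` of this slab, when the
certified costs of level `j` are `C`. -/
def Inst.ed (I : Inst) (X : Sched) (j s : ℕ) (C : ℕ → ℕ → ℕ → ℕ → ℕ) (k i u v : ℕ) : ℕ :=
  I.edge j (fun a a' => C (s * I.M + i) a a' (k - X.xi j (s * I.M + i))) u v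

/-- Certified cost of the node `(j, s, u, v)` at index `b`. -/
noncomputable def Inst.c (I : Inst) (X : Sched) : ℕ → ℕ → ℕ → ℕ → ℕ → ℕ
  | 0, s, u, v, b => if 2 ≤ b then I.hid s u v else I.vis s u v
  | j + 1, s, u, v, b =>
    if b = 0 then best (I.ed X j s (I.c X j) 0) I.M (u * I.M) (v * I.M)
    else min (best (I.ed X j s (I.c X j) b) I.M (u * I.M) (v * I.M))
      (chainCost (I.ed X j s (I.c X j) (b + 1)) I.M
        (X.lane (j + 1) s u v b (cut b (I.ed X j s (I.c X j)))))

/-- The lane of the node `(j+1, s, u, v)` in round `b`. -/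
noncomputable def Inst.L (I : Inst) (X : Sched) (j s u v b : ℕ) : ℕ → ℕ :=
  X.lane (j + 1) s u v b (cut b (I.ed X j s (I.c X j)))

/-- Edge costs of the true process. -/
noncomputable def Inst.e (I : Inst) (X : Sched) (j s k i u v : ℕ) : ℕ :=
  I.ed X j s (I.c X j) k i u v

theorem Inst.e_def (I : Inst) (X : Sched) (j s k i u v : ℕ) : I.e X j s k i u v =
    I.edge j (fun a a' => I.c X j (s * I.M + i) a a' (k - X.xi j (s * I.M + i))) u v := rfl

theorem Inst.c_zero (I : Inst) (X : Sched) (s u v b : ℕ) :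
    I.c X 0 s u v b = if 2 ≤ b then I.hid s u v else I.vis s u v := rfl

theorem Inst.c_succ_zero (I : Inst) (X : Sched) (j s u v : ℕ) :
    I.c X (j + 1) s u v 0 = best (I.e X j s 0) I.M (u * I.M) (v * I.M) := by
  rw [Inst.c, if_pos rfl]; rfl

theorem Inst.c_succ (I : Inst) (X : Sched) (j s u v : ℕ) {b : ℕ} (hb : 1 ≤ b) :
    I.c X (j + 1) s u v b = min (best (I.e X j s b) I.M (u * I.M) (v * I.M))
      (chainCost (I.e X j s (b + 1)) I.M (I.L X j s u v b)) := by
  rw [Inst.c, if_neg (by omega)]; rfl

/-- The schedule is admissible on instances with branching `M`. -/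
structure Sched.Ok (X : Sched) (M J : ℕ) : Prop where
  xi_le : ∀ j s, X.xi j s ≤ J
  chain : ∀ j s u v b f, u ≤ v → IsChain M (u * M) (v * M) (X.lane j s u v b f)

/-- The instance is admissible. -/
structure Inst.Ok (I : Inst) : Prop where
  M_two : 2 ≤ I.M
  le : ∀ s u v, I.hid s u v ≤ I.vis s u v

variable {I : Inst} {X : Sched} {J : ℕ}

theorem Inst.L_chain (hX : X.Ok I.M J) (j s u v b : ℕ) (huv : u ≤ v) :
    IsChain I.M (u * I.M) (v * I.M) (I.L X j s u v b) := hX.chain _ _ _ _ _ _ huv

theorem Inst.c_le_dp (j s u v b : ℕ) :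
    I.c X (j + 1) s u v b ≤ best (I.e X j s b) I.M (u * I.M) (v * I.M) := by
  rcases Nat.eq_zero_or_pos b with rfl | hb
  · rw [Inst.c_succ_zero]
  · rw [Inst.c_succ _ _ _ _ _ _ hb]; exact min_le_left _ _

theorem Inst.c_le_lane (j s u v : ℕ) {b : ℕ} (hb : 1 ≤ b) :
    I.c X (j + 1) s u v b ≤ chainCost (I.e X j s (b + 1)) I.M (I.L X j s u v b) := by
  rw [Inst.c_succ _ _ _ _ _ _ hb]; exact min_le_right _ _

/-- The certified costs are nonincreasing in the index, and edges too. -/
theorem Inst.c_antitone' (hI : I.Ok) (hX : X.Ok I.M J) : ∀ j s u v b, u ≤ v →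
    I.c X j s u v (b + 1) ≤ I.c X j s u v b := by
  intro j
  induction j with
  | zero =>
    intro s u v b _
    rw [Inst.c_zero, Inst.c_zero]
    split_ifs with h1 h2
    · exact le_rfl
    · exact hI.le _ _ _
    · omega
    · exact le_rfl
  | succ j ih =>
    intro s u v b huv
    have hM : 1 ≤ I.M := by have := hI.M_two; omega
    have huv' : u * I.M ≤ v * I.M := Nat.mul_le_mul_right _ huv
    -- edges
    have he : ∀ k, ∀ i < I.M, ∀ a a', u * I.M ≤ a → a ≤ a' → a' ≤ v * I.M →
        I.e X j s (k + 1) i a a' ≤ I.e X j s k i a a' := by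
      intro k i _ a a' _ haa _
      rw [Inst.e_def, Inst.e_def]
      apply Inst.edge_mono
      rcases Nat.lt_or_ge k (X.xi j (s * I.M + i)) with h | h
      · rw [show k + 1 - X.xi j (s * I.M + i) = 0 by omega,
          show k - X.xi j (s * I.M + i) = 0 by omega]
      · rw [show k + 1 - X.xi j (s * I.M + i) = (k - X.xi j (s * I.M + i)) + 1 by omega]
        exact ih _ _ _ _ haa
    have h1 : I.c X (j + 1) s u v (b + 1) ≤ best (I.e X j s (b + 1)) I.M (u * I.M) (v * I.M) :=
      Inst.c_le_dp _ _ _ _ _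
    refine h1.trans ?_
    have h2 : best (I.e X j s (b + 1)) I.M (u * I.M) (v * I.M) ≤
        best (I.e X j s b) I.M (u * I.M) (v * I.M) := best_mono hM huv' (he b)
    rcases Nat.eq_zero_or_pos b with rfl | hb
    · rw [Inst.c_succ_zero]; exact h2
    · rw [Inst.c_succ _ _ _ _ _ _ hb]
      exact le_min h2 (best_le (Inst.L_chain hX j s u v b huv))

theorem Inst.c_antitone (hI : I.Ok) (hX : X.Ok I.M J) {j s u v b b' : ℕ} (huv : u ≤ v)
    (hb : b ≤ b') : I.c X j s u v b' ≤ I.c X j s u v b := by
  induction b', hb using Nat.le_induction with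
  | base => exact le_rfl
  | succ k _ ih => exact (Inst.c_antitone' hI hX j s u v k huv).trans ih

/-- Edge costs are nonincreasing in the round. -/
theorem Inst.e_antitone (hI : I.Ok) (hX : X.Ok I.M J) {j s k k' i u v : ℕ} (huv : u ≤ v)
    (hk : k ≤ k') : I.e X j s k' i u v ≤ I.e X j s k i u v := by
  rw [Inst.e_def, Inst.e_def]
  exact Inst.edge_mono _ _ (Inst.c_antitone hI hX huv (by omega))

/-- At index `0` nothing is read. -/
theorem Inst.c_at_zero (hI : I.Ok) : ∀ j s u v, u ≤ v →
    I.c X j s u v 0 = I.D I.vis j s u v := by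
  intro j
  induction j with
  | zero => intro s u v _; rw [Inst.c_zero, if_neg (by omega)]; rfl
  | succ j ih =>
    intro s u v huv
    have hM : 1 ≤ I.M := by have := hI.M_two; omega
    rw [Inst.c_succ_zero, Inst.D]
    apply best_congr hM (Nat.mul_le_mul_right _ huv)
    intro i _ a a' _ haa _
    rw [Inst.e_def]
    unfold Inst.edge
    simp only [Nat.zero_sub, ih _ _ _ haa]

/-- The certified cost is at least the full value. -/
theorem Inst.D_le_c (hI : I.Ok) (hX : X.Ok I.M J) : ∀ j s u v b, u ≤ v →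
    I.D I.hid j s u v ≤ I.c X j s u v b := by
  intro j
  induction j with
  | zero =>
    intro s u v b _
    rw [Inst.c_zero]
    split_ifs
    · exact le_rfl
    · exact hI.le _ _ _
  | succ j ih =>
    intro s u v b huv
    have hM : 1 ≤ I.M := by have := hI.M_two; omega
    have huv' : u * I.M ≤ v * I.M := Nat.mul_le_mul_right _ huv
    have he : ∀ k, ∀ i < I.M, ∀ a a', u * I.M ≤ a → a ≤ a' → a' ≤ v * I.M →
        I.edge j (I.D I.hid j (s * I.M + i)) a a' ≤ I.e X j s k i a a' := by
      intro k i _ a a' _ haa _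
      rw [Inst.e_def]
      exact Inst.edge_mono _ _ (ih _ _ _ _ haa)
    rw [Inst.D]
    rcases Nat.eq_zero_or_pos b with rfl | hb
    · rw [Inst.c_succ_zero]; exact best_mono hM huv' (he 0)
    · rw [Inst.c_succ _ _ _ _ _ _ hb]
      refine le_min (best_mono hM huv' (he b)) ?_
      have hL := Inst.L_chain (I := I) hX j s u v b huv
      exact (best_le hL).trans (chainCost_mono hL (he (b + 1)))

/-- Everything is read at large indices. -/
theorem Inst.c_large (hI : I.Ok) (hX : X.Ok I.M J) : ∀ j s u v b, u ≤ v → J * j + 2 ≤ b →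
    I.c X j s u v b = I.D I.hid j s u v := by
  intro j
  induction j with
  | zero => intro s u v b _ hb; rw [Inst.c_zero, if_pos (by omega)]; rfl
  | succ j ih =>
    intro s u v b huv hb
    have hM : 1 ≤ I.M := by have := hI.M_two; omega
    have huv' : u * I.M ≤ v * I.M := Nat.mul_le_mul_right _ huv
    apply le_antisymm _ (Inst.D_le_c hI hX (j + 1) s u v b huv)
    rw [Inst.D]
    refine (Inst.c_le_dp _ _ _ _ _).trans (best_mono hM huv' ?_)
    intro i _ a a' _ haa _
    rw [Inst.e_def]
    apply Inst.edge_mono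
    have h1 := hX.xi_le j (s * I.M + i)
    have h2 : J * (j + 1) = J * j + J := by ring
    rw [ih _ _ _ _ haa (by omega)]

theorem Inst.c_le_U (hI : I.Ok) (hX : X.Ok I.M J) (j s u v b : ℕ) (huv : u ≤ v) :
    I.c X j s u v b ≤ I.D I.vis j s u v := by
  rw [← Inst.c_at_zero (X := X) hI j s u v huv]
  exact Inst.c_antitone hI hX huv (Nat.zero_le _)

/-! ### Read sets -/

/-- Leaves read below the short edges. -/
def Inst.sh (I : Inst) (T : Finset (ℕ × ℕ × ℕ)) (a a' : ℕ) : Finset (ℕ × ℕ × ℕ) :=
  if a' - a ≤ I.w then T else ∅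

/-- Read set of the node `(j, s, u, v)` at index `b`. -/
noncomputable def Inst.S (I : Inst) (X : Sched) : ℕ → ℕ → ℕ → ℕ → ℕ → Finset (ℕ × ℕ × ℕ)
  | 0, s, u, v, b => if 2 ≤ b then {(s, u, v)} else ∅
  | j + 1, s, u, v, b =>
    if b = 0 then ∅ else
      ((range I.M).biUnion fun i => (Icc (u * I.M) (v * I.M)).biUnion fun a =>
        (Icc a (v * I.M)).biUnion fun a' =>
          I.sh (I.S X j (s * I.M + i) a a' (b - X.xi j (s * I.M + i))) a a') ∪
      ((range I.M).biUnion fun i =>
          I.sh (I.S X j (s * I.M + i) (I.L X j s u v b i) (I.L X j s u v b (i + 1))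
            (b + 1 - X.xi j (s * I.M + i))) (I.L X j s u v b i) (I.L X j s u v b (i + 1)))

/-- All leaves read at index `b` below the nodes of the slab `s` of level `j` that start in
`[p, p + len)`. -/
noncomputable def Inst.R (I : Inst) (X : Sched) (j s b p len : ℕ) : Finset (ℕ × ℕ × ℕ) :=
  (Ico p (p + len)).biUnion fun u => (Icc u (u + I.w)).biUnion fun v => I.S X j s u v b

/-- The area recursion. -/
def Inst.area (I : Inst) (X : Sched) : ℕ → ℕ → ℕ → ℕ
  | 0, _, b => if 2 ≤ b then I.w + 1 else 0
  | j + 1, s, b => if b = 0 then 0 else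
      ∑ i ∈ range I.M, (I.M * I.area X j (s * I.M + i) (b - X.xi j (s * I.M + i)) +
        (I.w + 1) * (2 * I.w + 1) *
          I.area X j (s * I.M + i) (b + 1 - X.xi j (s * I.M + i)))

theorem Inst.card_R_le (hI : I.Ok) (hX : X.Ok I.M J) : ∀ j s b p len,
    (I.R X j s b p len).card ≤ (len + 2 * I.w) * I.area X j s b := by
  intro j
  induction j with
  | zero =>
    intro s b p len
    by_cases hb : 2 ≤ b
    · have h1 : (I.R X 0 s b p len).card ≤ len * (I.w + 1) := by
        unfold Inst.R
        refine (Finset.card_biUnion_le).trans ?_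
        have : ∀ u ∈ Ico p (p + len),
            ((Icc u (u + I.w)).biUnion fun v => I.S X 0 s u v b).card ≤ I.w + 1 := by
          intro u _
          refine (Finset.card_biUnion_le).trans ?_
          have : ∀ v ∈ Icc u (u + I.w), (I.S X 0 s u v b).card ≤ 1 := by
            intro v _
            rw [Inst.S, if_pos hb, Finset.card_singleton]
          refine (Finset.sum_le_sum this).trans ?_
          simp only [sum_const, Nat.card_Icc, smul_eq_mul, mul_one]
          omega
        refine (Finset.sum_le_sum this).trans ?_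
        simp
      refine h1.trans ?_
      rw [Inst.area, if_pos hb]
      exact Nat.mul_le_mul_right _ (by omega)
    · have : I.R X 0 s b p len = ∅ := by
        unfold Inst.R
        simp only [Inst.S, if_neg hb]
        ext x; simp
      rw [this]; simp
  | succ j ih =>
    intro s b p len
    rcases Nat.eq_zero_or_pos b with rfl | hb
    · have : I.R X (j + 1) s 0 p len = ∅ := by
        unfold Inst.R
        simp only [Inst.S, if_true]
        ext x; simp
      rw [this]; simp
    · have hM : 2 ≤ I.M := hI.M_two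
      have hsub : I.R X (j + 1) s b p len ⊆
          ((range I.M).biUnion fun i => I.R X j (s * I.M + i) (b - X.xi j (s * I.M + i))
            (p * I.M) ((len + I.w) * I.M)) ∪
          ((Ico p (p + len)).biUnion fun u => (Icc u (u + I.w)).biUnion fun v =>
            (range I.M).biUnion fun i => I.R X j (s * I.M + i) (b + 1 - X.xi j (s * I.M + i))
              (I.L X j s u v b i) 1) := by
        intro x hx
        unfold Inst.R at hx
        simp only [mem_biUnion, mem_Ico, mem_Icc] at hx
        obtain ⟨u, ⟨hu1, hu2⟩, v, ⟨hv1, hv2⟩, hx⟩ := hx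
        rw [Inst.S, if_neg (by omega), mem_union] at hx
        rw [mem_union]
        rcases hx with hx | hx
        · left
          simp only [mem_biUnion, mem_Icc, mem_range] at hx
          obtain ⟨i, hi, a, ⟨ha1, ha2⟩, a', ⟨ha1', ha2'⟩, hx⟩ := hx
          unfold Inst.sh at hx
          split_ifs at hx with hw
          · rw [mem_biUnion]
            refine ⟨i, mem_range.mpr hi, ?_⟩
            unfold Inst.R
            simp only [mem_biUnion, mem_Ico, mem_Icc]
            refine ⟨a, ⟨?_, ?_⟩, a', ⟨ha1', by omega⟩, hx⟩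
            · exact (Nat.mul_le_mul_right _ hu1).trans ha1
            · have h1 : v * I.M < (p + len + I.w) * I.M :=
                Nat.mul_lt_mul_of_pos_right (by omega) (by omega)
              have h2 : (p + len + I.w) * I.M = p * I.M + (len + I.w) * I.M := by ring
              omega
          · simp at hx
        · right
          simp only [mem_biUnion, mem_Ico, mem_Icc, mem_range] at hx ⊢
          obtain ⟨i, hi, hx⟩ := hx
          refine ⟨u, ⟨hu1, hu2⟩, v, ⟨hv1, hv2⟩, i, hi, ?_⟩
          unfold Inst.sh at hx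
          split_ifs at hx with hw
          · unfold Inst.R
            simp only [mem_biUnion, mem_Ico, mem_Icc]
            have hL := (Inst.L_chain (I := I) hX j s u v b hv1).mono i hi
            exact ⟨_, ⟨le_rfl, by omega⟩, _, ⟨hL, by omega⟩, hx⟩
          · simp at hx
      refine (Finset.card_le_card hsub).trans ((Finset.card_union_le _ _).trans ?_)
      have h1 : ((range I.M).biUnion fun i => I.R X j (s * I.M + i) (b - X.xi j (s * I.M + i))
            (p * I.M) ((len + I.w) * I.M)).card ≤
          ∑ i ∈ range I.M, (len + 2 * I.w) * (I.M *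
            I.area X j (s * I.M + i) (b - X.xi j (s * I.M + i))) := by
        refine (Finset.card_biUnion_le).trans (Finset.sum_le_sum fun i _ => ?_)
        refine (ih _ _ _ _).trans ?_
        rw [← mul_assoc]
        apply Nat.mul_le_mul_right
        have : 2 * I.w ≤ I.M * I.w := Nat.mul_le_mul_right _ hM
        nlinarith
      have h2 : ((Ico p (p + len)).biUnion fun u => (Icc u (u + I.w)).biUnion fun v =>
            (range I.M).biUnion fun i => I.R X j (s * I.M + i) (b + 1 - X.xi j (s * I.M + i))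
              (I.L X j s u v b i) 1).card ≤
          ∑ i ∈ range I.M, (len + 2 * I.w) * ((I.w + 1) * (2 * I.w + 1) *
            I.area X j (s * I.M + i) (b + 1 - X.xi j (s * I.M + i))) := by
        set A := ∑ i ∈ range I.M, (2 * I.w + 1) *
            I.area X j (s * I.M + i) (b + 1 - X.xi j (s * I.M + i)) with hA
        have h3 : ∀ u v, ((range I.M).biUnion fun i => I.R X j (s * I.M + i)
            (b + 1 - X.xi j (s * I.M + i)) (I.L X j s u v b i) 1).card ≤ A := by
          intro u v
          refine (Finset.card_biUnion_le).trans (Finset.sum_le_sum fun i _ => ?_)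
          refine (ih _ _ _ _).trans (Nat.mul_le_mul_right _ (by omega))
        have h4 : ((Ico p (p + len)).biUnion fun u => (Icc u (u + I.w)).biUnion fun v =>
            (range I.M).biUnion fun i => I.R X j (s * I.M + i) (b + 1 - X.xi j (s * I.M + i))
              (I.L X j s u v b i) 1).card ≤ len * ((I.w + 1) * A) := by
          refine (Finset.card_biUnion_le).trans ?_
          have : ∀ u ∈ Ico p (p + len), ((Icc u (u + I.w)).biUnion fun v =>
            (range I.M).biUnion fun i => I.R X j (s * I.M + i) (b + 1 - X.xi j (s * I.M + i))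
              (I.L X j s u v b i) 1).card ≤ (I.w + 1) * A := by
            intro u _
            refine (Finset.card_biUnion_le).trans ((Finset.sum_le_sum fun v _ => h3 u v).trans ?_)
            simp only [sum_const, Nat.card_Icc, smul_eq_mul]
            apply Nat.mul_le_mul_right; omega
          refine (Finset.sum_le_sum this).trans ?_
          simp
        refine h4.trans ?_
        have h5 : ∑ i ∈ range I.M, (len + 2 * I.w) * ((I.w + 1) * (2 * I.w + 1) *
            I.area X j (s * I.M + i) (b + 1 - X.xi j (s * I.M + i))) =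
            (len + 2 * I.w) * ((I.w + 1) * A) := by
          rw [hA, Finset.mul_sum, Finset.mul_sum]
          apply Finset.sum_congr rfl; intro i _; ring
        rw [h5]
        exact Nat.mul_le_mul_right _ (by omega)
      refine (Nat.add_le_add h1 h2).trans ?_
      rw [Inst.area, if_neg (by omega), ← Finset.sum_add_distrib, Finset.mul_sum]
      apply Finset.sum_le_sum
      intro i _
      apply le_of_eq; ring

/-- Number of leaves read for one node. -/
theorem Inst.card_S_le (hI : I.Ok) (hX : X.Ok I.M J) {j s u v b : ℕ} (huv : u ≤ v)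
    (hw : v ≤ u + I.w) : (I.S X j s u v b).card ≤ (2 * I.w + 1) * I.area X j s b := by
  have h := Inst.card_R_le hI hX j s b u 1
  refine (Finset.card_le_card ?_).trans (h.trans (Nat.mul_le_mul_right _ (by omega)))
  intro x hx
  unfold Inst.R
  simp only [mem_biUnion, mem_Ico, mem_Icc]
  exact ⟨u, ⟨le_rfl, by omega⟩, v, ⟨huv, hw⟩, hx⟩

end Vale.Agent.P315.H365
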